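import Vale.Agent.P250.Main

/-!
A simply connected complete negatively pinched Kähler threefold that is not biholomorphic to a
bounded domain.
-/

open Vale.Agent.P250

theorem Vale.Agent.Results.P250.NotBounded.result :
    ∃ (M : Set (Fin 3 → ℂ)) (K : KahlerMetric M), IsOpen M ∧ IsConnected M ∧
      SimplyConnectedSpace M ∧ K.Complete ∧ K.NegPinched ∧
      (∀ Ω : Set (Fin 3 → ℂ), IsOpen Ω → Bornology.IsBounded Ω → ¬ Biholomorphic M Ω) ∧
      ∀ F : (Fin 3 → ℂ) → (Fin 3 → ℂ), DifferentiableOn ℂ F M → Bornology.IsBounded (F '' M) →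
        ∃ p ∈ M, ¬ Function.Injective (fderiv ℂ F p) := by
  obtain ⟨M, K, h1, h2, h3, h4, h5⟩ := main
  refine ⟨M, K, h1, isConnected_iff_connectedSpace.2 inferInstance, h2, h3, h4, ?_, h5⟩
  rintro Ω hΩ hb ⟨F, G, hF, hG, m1, -, e1, -⟩
  obtain ⟨p, hp, hn⟩ := h5 F hF (hb.subset m1.image_subset)
  have a1 := (hF.differentiableAt (h1.mem_nhds hp)).hasFDerivAt
  have a2 := (hG.differentiableAt (hΩ.mem_nhds (m1 hp))).hasFDerivAt
  have a3 : HasFDerivAt (G ∘ F) (ContinuousLinearMap.id ℂ _) p :=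
    (hasFDerivAt_id p).congr_of_eventuallyEq ((h1.eventually_mem hp).mono e1)
  have a4 := (a2.comp p a1).unique a3
  exact hn (Function.LeftInverse.injective (g := fderiv ℂ G (F p)) fun v =>
    congrArg (fun L : (Fin 3 → ℂ) →L[ℂ] (Fin 3 → ℂ) => L v) a4)
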